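import Vale.Agent.P279.H765.Mom

/-!
# P279: clearing denominators and dehomogenising a form over `k((t))`
-/

namespace Vale.Agent.P279.H142

open MvPolynomial Vale.Agent.P279.H765

variable {k : Type*} [Field k]

/-- the coefficients of a power series seen as a Laurent series -/
theorem coeff_ofPS {B : Type*} [CommRing B] (f : PowerSeries B) (i : ℤ) :
    (HahnSeries.ofPowerSeries ℤ B f).coeff i =
      if i < 0 then 0 else PowerSeries.coeff i.natAbs f :=
  PowerSeries.coeff_coe f i

theorem io_ofPS (c : PowerSeries k) :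
    io k (HahnSeries.ofPowerSeries ℤ k c) =
      HahnSeries.ofPowerSeries ℤ (R2 k) (PowerSeries.map (algebraMap k (R2 k)) c) := by
  ext1
  funext i
  rw [io, mapRH_coeff, coeff_ofPS, coeff_ofPS]
  split_ifs with h
  · exact map_zero _
  · rw [PowerSeries.coeff_map]

/-- a Laurent series with no coefficient below `-n` is `t ^ (-n)` times a power series -/
theorem exists_ps (n : ℤ) (x : HahnSeries ℤ k) (hx : ∀ i < -n, x.coeff i = 0) :
    HahnSeries.ofPowerSeries ℤ k (PowerSeries.mk fun i => x.coeff ((i : ℤ) - n)) =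
      HahnSeries.single n 1 * x := by
  ext1
  funext i
  rw [coeff_ofPS, HahnSeries.coeff_single_mul, one_mul]
  split_ifs with h
  · rw [hx]
    omega
  · rw [PowerSeries.coeff_mk]
    congr 1
    omega

/-- the restriction of an exponent to the first two variables -/
noncomputable def res (δ : Fin 3 →₀ ℕ) : Fin 2 →₀ ℕ := Finsupp.single 0 (δ 0) + Finsupp.single 1 (δ 1)

@[simp] theorem res_zero (δ : Fin 3 →₀ ℕ) : res δ 0 = δ 0 := by simp [res]

@[simp] theorem res_one (δ : Fin 3 →₀ ℕ) : res δ 1 = δ 1 := by simp [res]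

theorem degree_fin3 (δ : Fin 3 →₀ ℕ) : δ.degree = δ 0 + δ 1 + δ 2 := by
  rw [Finsupp.degree_eq_sum, Fin.sum_univ_three]

theorem exists_bound (P : MvPolynomial (Fin 3) (HahnSeries ℤ k)) :
    ∃ n : ℤ, ∀ δ ∈ P.support, ∀ i < -n, (coeff δ P).coeff i = 0 := by
  obtain ⟨M, hM⟩ := Finset.exists_le (P.support.image fun δ => -(coeff δ P).order)
  refine ⟨M, fun δ hδ i hi => ?_⟩
  have h1 : -(coeff δ P).order ≤ M :=
    hM _ (Finset.mem_image_of_mem (fun δ => -(coeff δ P).order) hδ)
  exact HahnSeries.coeff_eq_zero_of_lt_order (by omega)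

/-- **Clearing and dehomogenising.** -/
theorem clear (d : ℕ) (P : MvPolynomial (Fin 3) (HahnSeries ℤ k)) (hP : P.IsHomogeneous d)
    (h0 : P ≠ 0) :
    ∃ (n : ℤ) (Q : MvPolynomial (Fin 2) (PowerSeries k)), Q ≠ 0 ∧
      (∀ δ ∈ Q.support, δ 0 + δ 1 ≤ d) ∧
      ∀ pt : Fin 2 → PowerSeries (R2 k),
        HahnSeries.single n 1 * eval₂ (io k)
            ![HahnSeries.ofPowerSeries ℤ (R2 k) (pt 0), HahnSeries.ofPowerSeries ℤ (R2 k) (pt 1), 1]
            P =
          HahnSeries.ofPowerSeries ℤ (R2 k)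
            (eval₂ (PowerSeries.map (algebraMap k (R2 k))) pt Q) := by
  classical
  obtain ⟨n, hn⟩ := exists_bound P
  set c : (Fin 3 →₀ ℕ) → PowerSeries k :=
    fun δ => PowerSeries.mk fun i => (coeff δ P).coeff ((i : ℤ) - n) with hc
  have hc1 : ∀ δ ∈ P.support, HahnSeries.ofPowerSeries ℤ k (c δ) =
      HahnSeries.single n 1 * coeff δ P := fun δ hδ => exists_ps n _ (hn δ hδ)
  have hdeg : ∀ δ ∈ P.support, δ 0 + δ 1 + δ 2 = d := by
    intro δ hδ
    rw [← degree_fin3]
    rw [Finsupp.degree_eq_weight_one]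
    exact hP (mem_support_iff.mp hδ)
  have hinj : ∀ δ ∈ P.support, ∀ ε ∈ P.support, res δ = res ε → δ = ε := by
    intro δ hδ ε hε h
    have h1 : δ 0 = ε 0 := by rw [← res_zero, h, res_zero]
    have h2 : δ 1 = ε 1 := by rw [← res_one, h, res_one]
    have h3 := hdeg δ hδ
    have h4 := hdeg ε hε
    ext i
    fin_cases i
    · exact h1
    · exact h2
    · simp only [Fin.reduceFinMk]
      omega
  refine ⟨n, ∑ δ ∈ P.support, monomial (res δ) (c δ), ?_, ?_, ?_⟩
  · obtain ⟨δ, hδ⟩ := ne_zero_iff.mp h0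
    have hδ' : δ ∈ P.support := mem_support_iff.mpr hδ
    intro hQ
    have h1 := congrArg (coeff (res δ)) hQ
    rw [coeff_sum, coeff_zero, Finset.sum_eq_single δ] at h1
    · rw [coeff_monomial, if_pos rfl] at h1
      have h2 := hc1 δ hδ'
      rw [h1, map_zero] at h2
      have h3 : (HahnSeries.single n 1 : HahnSeries ℤ k) ≠ 0 :=
        HahnSeries.single_ne_zero one_ne_zero
      rcases mul_eq_zero.mp h2.symm with h4 | h4
      · exact h3 h4
      · exact hδ h4
    · intro ε hε hne
      rw [coeff_monomial, if_neg]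
      intro h
      exact hne (hinj ε hε δ hδ' h)
    · intro h
      exact absurd hδ' h
  · intro δ hδ
    have h1 := support_sum hδ
    rw [Finset.mem_biUnion] at h1
    obtain ⟨ε, hε, h2⟩ := h1
    have h3 := support_monomial_subset h2
    rw [Finset.mem_singleton] at h3
    subst h3
    have := hdeg ε hε
    rw [res_zero, res_one]
    omega
  · intro pt
    rw [eval₂_eq' (g := io k), eval₂_sum, map_sum, Finset.mul_sum]
    refine Finset.sum_congr rfl fun δ hδ => ?_
    rw [eval₂_monomial, Fin.prod_univ_three]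
    have h1 : (res δ).prod (fun i e => pt i ^ e) = pt 0 ^ δ 0 * pt 1 ^ δ 1 := by
      rw [Finsupp.prod_fintype _ _ (fun i => pow_zero _), Fin.prod_univ_two, res_zero, res_one]
    rw [h1]
    simp only [map_mul, map_pow, Matrix.cons_val_zero, Matrix.cons_val_one, Matrix.cons_val,
      one_pow, mul_one]
    rw [← io_ofPS, hc1 δ hδ, map_mul]
    have h2 : io k (HahnSeries.single n 1) = HahnSeries.single n 1 := by
      rw [io, mapRH_single, map_one]
    rw [h2]
    ring

end Vale.Agent.P279.H142
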