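import Vale.Agent.P279.H597.Fin

/-!
# P279: the core statement for `m < b` implies the core statement for `m ≤ b`
-/

namespace Vale.Agent.P279.H142

open Vale.Agent.P279 Vale.Agent.P279.H597

/-- It is enough to prove the core statement for `m < b`. -/
theorem core_of_lt {r : ℕ} (hr : 10 ≤ r)
    (h : ∀ b m : ℕ, 1 ≤ m → m < b → 9 * b ^ 2 ≤ r * m ^ 2 →
      ¬ Eff (3 * b) 0 (fun _ : Fin r => m)) : Core r := by
  intro b m hm hmb hbm hE
  rcases lt_or_eq_of_le hmb with h1 | rfl
  · exact h b m hm h1 hbm hE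
  · have h3 := eff_nsmul hE 19
    refine h (19 * m + 1) (19 * m) (by omega) (by omega) ?_
      (eff_mono (b' := 3 * (19 * m + 1)) h3 (by omega) fun i => le_rfl)
    have h4 : 10 * (19 * m) ^ 2 ≤ r * (19 * m) ^ 2 := Nat.mul_le_mul_right _ hr
    refine le_trans ?_ h4
    nlinarith [hm, Nat.mul_le_mul hm hm]

end Vale.Agent.P279.H142
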