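import Mathlib.Tactic
import Mathlib.Data.Finset.Card
import Mathlib.Algebra.BigOperators.Group.Finset.Basic
import Mathlib.Algebra.Order.BigOperators.Group.Finset

/-!
Integer dissection of the support `Q_s` (block DIS).
-/

namespace Vale.Agent.P279.H142

open Finset

/-- The lattice points of `Q_s`, `s` slightly below `9 (b - m) / m`. -/
def Qs (b m : ℕ) : Finset (ℕ × ℕ) :=
  (range (b + 1) ×ˢ range (9 * b * b + 1)).filter fun p =>
    p = (0, 0) ∨ (1 ≤ p.1 ∧ 9 * (b - m) * p.1 ≤ m * p.2 ∧ m * p.2 < 9 * b * p.1)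

/-- The part below the line `DC`. -/
def T (b m : ℕ) : Finset (ℕ × ℕ) :=
  (Qs b m).filter fun p => m * p.2 < 9 * (b - m) * (p.1 + m)

/-- The fan, above the line `DC`. -/
def F (b m : ℕ) : Finset (ℕ × ℕ) :=
  (Qs b m).filter fun p => 9 * (b - m) * (p.1 + m) ≤ m * p.2

theorem mem_Qs {b m : ℕ} (hm : 1 ≤ m) {p : ℕ × ℕ} :
    p ∈ Qs b m ↔ p = (0, 0) ∨
      (1 ≤ p.1 ∧ p.1 ≤ b ∧ 9 * (b - m) * p.1 ≤ m * p.2 ∧ m * p.2 < 9 * b * p.1) := by
  simp only [Qs, mem_filter, mem_product, mem_range]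
  constructor
  · rintro ⟨⟨h1, h2⟩, h | ⟨h3, h4, h5⟩⟩
    · exact Or.inl h
    · exact Or.inr ⟨h3, by omega, h4, h5⟩
  · rintro (h | ⟨h1, h2, h3, h4⟩)
    · subst h
      exact ⟨⟨by simp, by simp⟩, Or.inl rfl⟩
    · refine ⟨⟨by omega, ?_⟩, Or.inr ⟨h1, h3, h4⟩⟩
      have h5 : p.2 ≤ m * p.2 := Nat.le_mul_of_pos_left _ hm
      have h6 : 9 * b * p.1 ≤ 9 * b * b := Nat.mul_le_mul_left _ h2
      omega

theorem T_union_F (b m : ℕ) : T b m ∪ F b m = Qs b m := by
  ext p
  simp only [T, F, mem_union, mem_filter]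
  constructor
  · rintro (h | h) <;> exact h.1
  · intro h
    rcases lt_or_ge (m * p.2) (9 * (b - m) * (p.1 + m)) with h1 | h1
    · exact Or.inl ⟨h, h1⟩
    · exact Or.inr ⟨h, h1⟩

theorem disjoint_T_F (b m : ℕ) : Disjoint (T b m) (F b m) := by
  rw [Finset.disjoint_left]
  intro p h1 h2
  simp only [T, F, mem_filter] at h1 h2
  omega

/-- The integer linear form `u j + v i` separating the two parts: `u`. -/
def cu (b m : ℕ) : ℤ := -(9 * (b - m))

/-- The threshold. -/
def cc (b m : ℕ) : ℤ := 9 * (b - m) * m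

theorem sep_T {b m : ℕ} (hb : m ≤ b) {p : ℕ × ℕ} (hp : p ∈ T b m) :
    cu b m * (p.1 : ℤ) + (m : ℤ) * (p.2 : ℤ) < cc b m := by
  simp only [T, mem_filter] at hp
  obtain ⟨-, h⟩ := hp
  zify [hb] at h
  simp only [cu, cc]
  linarith

theorem sep_F {b m : ℕ} (hb : m ≤ b) {p : ℕ × ℕ} (hp : p ∈ F b m) :
    cc b m ≤ cu b m * (p.1 : ℤ) + (m : ℤ) * (p.2 : ℤ) := by
  simp only [F, mem_filter] at hp
  obtain ⟨-, h⟩ := hp
  zify [hb] at h
  simp only [cu, cc]
  linarith

/-! ### The fan -/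

/-- The multiples of `m` in `[A, A + m N)`. -/
theorem card_mult (m A N B : ℕ) (hm : 1 ≤ m) (hB : A + m * N ≤ m * B) :
    ((range B).filter fun i => A ≤ m * i ∧ m * i < A + m * N).card = N := by
  have key : ((range B).filter fun i => A ≤ m * i ∧ m * i < A + m * N) =
      Ico ((A + m - 1) / m) ((A + m - 1) / m + N) := by
    ext i
    simp only [mem_filter, mem_range, mem_Ico]
    have h1 : A ≤ m * i ↔ (A + m - 1) / m ≤ i := by
      rw [Nat.div_le_iff_le_mul_add_pred hm]
      omega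
    have h2 : m * i < A + m * N ↔ i < (A + m - 1) / m + N := by
      rcases le_or_gt N i with h | h
      · obtain ⟨k, rfl⟩ := Nat.exists_eq_add_of_le h
        have h3 : N + k < (A + m - 1) / m + N ↔ k < (A + m - 1) / m := by omega
        rw [h3]
        have h4 : k < (A + m - 1) / m ↔ k + 1 ≤ (A + m - 1) / m := Iff.rfl
        rw [h4, Nat.le_div_iff_mul_le hm]
        have h5 : m * (N + k) = m * N + m * k := by ring
        have h6 : (k + 1) * m = m * k + m := by ring
        rw [h5, h6]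
        omega
      · have h7 : m * i < m * N := Nat.mul_lt_mul_of_pos_left h hm
        have h8 : 0 ≤ (A + m - 1) / m := Nat.zero_le _
        constructor
        · intro _
          omega
        · intro _
          omega
    rw [← h1, ← h2]
    constructor
    · rintro ⟨-, h⟩
      exact h
    · intro h
      refine ⟨?_, h⟩
      by_contra hc
      push Not at hc
      have := Nat.mul_le_mul_left m hc
      omega
  rw [key, Nat.card_Ico]
  omega

theorem card_col_F {b m : ℕ} (hm : 1 ≤ m) (hb : m < b) (j : ℕ) (hj : j ≤ b) :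
    ((F b m).filter fun p => p.1 = j).card = 9 * (j - (b - m)) := by
  rcases le_or_gt j (b - m) with h | h
  · rw [Nat.sub_eq_zero_of_le h, mul_zero, card_eq_zero, filter_eq_empty_iff]
    rintro ⟨x, y⟩ hp rfl
    simp only [F, mem_filter, mem_Qs hm] at hp
    obtain ⟨h1 | ⟨h1, h2, h3, h4⟩, h5⟩ := hp
    · simp only [Prod.mk.injEq] at h1
      obtain ⟨rfl, rfl⟩ := h1
      have : 1 ≤ 9 * (b - m) * (0 + m) := by
        have h6 : 1 ≤ b - m := by omega
        nlinarith
      omega
    · have hb' : m ≤ b := hb.le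
      simp only at *
      zify [hb'] at *
      nlinarith
  · have h1 : ((F b m).filter fun p => p.1 = j) =
        ((range (9 * b * b + 1)).filter fun i => 9 * (b - m) * (j + m) ≤ m * i ∧
          m * i < 9 * (b - m) * (j + m) + m * (9 * (j - (b - m)))).image
          fun i => (j, i) := by
      ext ⟨x, y⟩
      simp only [F, mem_filter, mem_Qs hm, mem_image, mem_range, Prod.mk.injEq]
      have e1 : 9 * (b - m) * (j + m) + m * (9 * (j - (b - m))) = 9 * b * j := by
        obtain ⟨c, rfl⟩ := Nat.exists_eq_add_of_le hb.le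
        obtain ⟨e, rfl⟩ := Nat.exists_eq_add_of_le h.le
        have e2 : m + c - m = c := by omega
        rw [e2] at *
        have e3 : c + e - c = e := by omega
        rw [e3]
        ring
      constructor
      · rintro ⟨⟨h2 | ⟨h2, h3, h4, h5⟩, h6⟩, rfl⟩
        · obtain ⟨rfl, rfl⟩ := h2
          omega
        · refine ⟨y, ⟨?_, h6, by rw [e1]; exact h5⟩, rfl, rfl⟩
          have h7 : y ≤ m * y := Nat.le_mul_of_pos_left _ hm
          have h8 : 9 * b * x ≤ 9 * b * b := Nat.mul_le_mul_left _ h3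
          omega
      · rintro ⟨i, ⟨h2, h3, h4⟩, rfl, rfl⟩
        rw [e1] at h4
        refine ⟨⟨Or.inr ⟨by omega, hj, ?_, h4⟩, h3⟩, rfl⟩
        refine le_trans (Nat.mul_le_mul_left _ (Nat.le_add_right _ _)) h3
    rw [h1, card_image_of_injective _ fun x y hxy => (Prod.mk.inj hxy).2, card_mult m _ _ _ hm]
    have hb' : m ≤ b := hb.le
    have h2 : 9 * (b - m) * (j + m) + m * (9 * (j - (b - m))) = 9 * b * j := by
      obtain ⟨c, rfl⟩ := Nat.exists_eq_add_of_le hb.le
      obtain ⟨e, rfl⟩ := Nat.exists_eq_add_of_le h.le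
      have e2 : m + c - m = c := by omega
      rw [e2] at *
      have e3 : c + e - c = e := by omega
      rw [e3]
      ring
    rw [h2]
    have h3 : 9 * b * j ≤ 9 * b * b := Nat.mul_le_mul_left _ hj
    have h4 : 9 * b * b + 1 ≤ m * (9 * b * b + 1) := Nat.le_mul_of_pos_left _ hm
    omega

theorem fst_le_of_mem_F {b m : ℕ} (hm : 1 ≤ m) {p : ℕ × ℕ} (hp : p ∈ F b m) : p.1 ≤ b := by
  simp only [F, mem_filter, mem_Qs hm] at hp
  obtain ⟨h1 | h1, -⟩ := hp
  · rw [h1]
    exact Nat.zero_le _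
  · exact h1.2.1

/-! ### The trapezoid -/

theorem row_zero_T {b m : ℕ} (hm : 1 ≤ m) (hb : m < b) {p : ℕ × ℕ} (hp : p ∈ T b m)
    (h : p.2 = 0) : p = (0, 0) := by
  simp only [T, mem_filter, mem_Qs hm] at hp
  obtain ⟨h1 | ⟨h1, h2, h3, h4⟩, -⟩ := hp
  · exact h1
  · exfalso
    rw [h, mul_zero] at h3
    have h5 : 1 ≤ b - m := by omega
    have h6 : 1 ≤ 9 * (b - m) * p.1 := by nlinarith
    omega

/-- In a finite set of naturals with at least `t ≥ 1` elements, max - min ≥ t - 1. -/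
theorem exists_spread {A : Finset ℕ} {t : ℕ} (ht : 1 ≤ t) (h : t ≤ A.card) :
    ∃ x ∈ A, ∃ y ∈ A, x + (t - 1) ≤ y := by
  have hne : A.Nonempty := card_pos.mp (by omega)
  refine ⟨A.min' hne, A.min'_mem hne, A.max' hne, A.max'_mem hne, ?_⟩
  have h1 : A ⊆ Icc (A.min' hne) (A.max' hne) := fun a ha =>
    mem_Icc.mpr ⟨A.min'_le a ha, A.le_max' a ha⟩
  have h2 := card_le_card h1
  rw [Nat.card_Icc] at h2
  have h3 : A.min' hne ≤ A.max' hne := A.min'_le _ (A.max'_mem hne)
  omega

theorem row_bounds {b m i t : ℕ} (hm : 1 ≤ m) (hb : m < b) (hi : 1 ≤ i) (ht : 1 ≤ t)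
    (h : t ≤ ((T b m).filter fun p => p.2 = i).card) :
    9 * b * (b - m) * (t - 1) < m ^ 2 * i ∧
      m ^ 2 * i + 9 * (b - m) * m * (t - 1) < 9 * (b - m) * m * (b + m) := by
  have h1 : ((T b m).filter fun p => p.2 = i).card =
      (((T b m).filter fun p => p.2 = i).image Prod.fst).card := by
    rw [card_image_of_injOn]
    rintro ⟨x, y⟩ hx ⟨x', y'⟩ hx' hxx
    rw [mem_coe, mem_filter] at hx hx'
    simp only at hxx
    rw [Prod.mk.injEq]
    exact ⟨hxx, hx.2.trans hx'.2.symm⟩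
  rw [h1] at h
  obtain ⟨x, hx, y, hy, hxy⟩ := exists_spread ht h
  simp only [mem_image, mem_filter, T, mem_Qs hm] at hx hy
  obtain ⟨⟨x, i1⟩, ⟨⟨hx1 | ⟨hx1, hx2, hx3, hx4⟩, hx5⟩, rfl⟩, rfl⟩ := hx
  · simp only [Prod.mk.injEq] at hx1
    simp only at hi
    omega
  obtain ⟨⟨y, i2⟩, ⟨⟨hy1 | ⟨hy1, hy2, hy3, hy4⟩, hy5⟩, hyi⟩, rfl⟩ := hy
  · simp only [Prod.mk.injEq] at hy1
    simp only at hyi
    omega
  simp only at hx1 hx2 hx3 hx4 hx5 hy1 hy2 hy3 hy4 hy5 hyi hxy
  subst hyi
  obtain ⟨t', rfl⟩ := Nat.exists_eq_add_of_le ht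
  obtain ⟨c, rfl⟩ := Nat.exists_eq_add_of_le hb.le
  obtain ⟨z, rfl⟩ := Nat.exists_eq_add_of_le hxy
  simp only [Nat.add_sub_cancel_left] at hx3 hx5 hy3 hy5 hy1 hy2 hy4 ⊢
  clear h h1 hxy hi ht
  constructor
  · have h2 : 9 * (m + c) * (9 * c * (x + t' + z)) ≤ 9 * (m + c) * (m * i2) :=
      Nat.mul_le_mul_left _ hy3
    have h3 : 9 * c * (m * i2) < 9 * c * (9 * (m + c) * x) :=
      Nat.mul_lt_mul_of_pos_left hx4 (by omega)
    have h4 : 0 ≤ 9 * (m + c) * (9 * c * z) := Nat.zero_le _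
    nlinarith
  · have h2 : m * (m * i2) < m * (9 * c * (x + m)) := Nat.mul_lt_mul_of_pos_left hx5 hm
    have h3 : 9 * c * m * (x + t' + z) ≤ 9 * c * m * (m + c) := Nat.mul_le_mul_left _ hy2
    have h4 : 0 ≤ 9 * c * m * z := Nat.zero_le _
    nlinarith

/-- Naturals in one residue class in a short open interval. -/
theorem card_class_le {A : Finset ℕ} {g c L P M : ℕ}
    (hc : ∀ i ∈ A, i % g = c) (h1 : ∀ i ∈ A, P ≤ M * i) (h2 : ∀ i ∈ A, M * i < P + M * (g * L)) :
    A.card ≤ L := by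
  rcases A.eq_empty_or_nonempty with rfl | hne
  · simp
  have hinj : Set.InjOn (fun i => i / g) (A : Set ℕ) := by
    intro x hx y hy hxy
    simp only at hxy
    rw [← Nat.div_add_mod x g, ← Nat.div_add_mod y g, hxy, hc x hx, hc y hy]
  rw [← card_image_of_injOn hinj]
  have hne' : (A.image fun i => i / g).Nonempty := hne.image _
  set q₀ := (A.image fun i => i / g).min' hne' with hq₀
  have hsub : (A.image fun i => i / g) ⊆ Ico q₀ (q₀ + L) := by
    intro q hq
    rw [mem_Ico]
    refine ⟨min'_le _ _ hq, ?_⟩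
    by_contra hcon
    push Not at hcon
    obtain ⟨x, hx, hxq⟩ := mem_image.mp hq
    obtain ⟨y, hy, hyq⟩ := mem_image.mp (min'_mem _ hne')
    rw [← hq₀] at hyq
    have e1 := Nat.div_add_mod x g
    have e2 := Nat.div_add_mod y g
    rw [hc x hx, hxq] at e1
    rw [hc y hy, hyq] at e2
    have h3 : y + g * L ≤ x := by
      have := Nat.mul_le_mul_left g hcon
      rw [mul_add] at this
      omega
    have h4 := Nat.mul_le_mul_left M h3
    rw [mul_add] at h4
    have := h1 y hy
    have := h2 x hx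
    omega
  have := card_le_card hsub
  rw [Nat.card_Ico] at this
  omega

/-- The number of rows of `T` in one residue class with at least `t` points. -/
theorem rows_T {b m g : ℕ} (hm : 1 ≤ m) (hb : m < b) (hg : 1 ≤ g)
    (h : 9 * b ^ 2 ≤ (9 + g) * m ^ 2) (c t : ℕ) (ht : 1 ≤ t) :
    (((T b m).image Prod.snd).filter fun i => i % g = c ∧
      t ≤ ((T b m).filter fun p => p.2 = i).card).card ≤ m + 1 - t := by
  have hpos : ∀ i ∈ ((T b m).image Prod.snd).filter (fun i => i % g = c ∧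
      t ≤ ((T b m).filter fun p => p.2 = i).card), 1 ≤ i ∨ (i = 0 ∧ t = 1) := by
    intro i hi
    rcases Nat.eq_zero_or_pos i with rfl | h1
    · right
      refine ⟨rfl, ?_⟩
      rw [mem_filter] at hi
      have h2 : ((T b m).filter fun p => p.2 = 0) ⊆ {(0, 0)} := by
        intro p hp
        rw [mem_filter] at hp
        rw [mem_singleton]
        exact row_zero_T hm hb hp.1 hp.2
      have h3 := card_le_card h2
      rw [card_singleton] at h3
      omega
    · exact Or.inl h1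
  rcases le_or_gt t (m + 1) with htm | htm
  · obtain ⟨L, hL⟩ := Nat.exists_eq_add_of_le htm
    have e1 : m + 1 - t = L := by omega
    rw [e1]
    refine card_class_le (g := g) (c := c) (L := L) (P := 9 * b * (b - m) * (t - 1))
      (M := m ^ 2) ?_ ?_ ?_
    · intro i hi
      exact (mem_filter.mp hi).2.1
    · intro i hi
      rcases hpos i hi with h1 | ⟨rfl, rfl⟩
      · exact (row_bounds hm hb h1 ht (mem_filter.mp hi).2.2).1.le
      · simp
    · intro i hi
      obtain ⟨d, rfl⟩ := Nat.exists_eq_add_of_le hb.le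
      have h5 : 9 * ((m + d) * (m + d)) ≤ (9 + g) * (m * m) := by
        have := h
        rw [pow_two, pow_two] at this
        exact this
      have h6 : 9 * d * (m + (m + d)) ≤ g * (m * m) := by nlinarith
      rcases hpos i hi with h1 | ⟨rfl, rfl⟩
      · have h2 := (row_bounds hm hb h1 ht (mem_filter.mp hi).2.2).2
        simp only [Nat.add_sub_cancel_left] at h2 ⊢
        obtain ⟨t', rfl⟩ := Nat.exists_eq_add_of_le ht
        simp only [Nat.add_sub_cancel_left] at h2 ⊢
        have h7 : m = t' + L := by omega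
        have h8 : 9 * d * (m + (m + d)) * L ≤ g * (m * m) * L := Nat.mul_le_mul_right _ h6
        subst h7
        nlinarith
      · simp only [Nat.add_sub_cancel_left]
        have h7 : m = L := by omega
        subst h7
        have h8 : 0 < m ^ 2 * (g * m) := by positivity
        simp only [mul_zero, Nat.sub_self]
        omega
  · have h1 : ((T b m).image Prod.snd).filter (fun i => i % g = c ∧
      t ≤ ((T b m).filter fun p => p.2 = i).card) = ∅ := by
      rw [eq_empty_iff_forall_notMem]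
      intro i hi
      rcases hpos i hi with h1 | ⟨rfl, rfl⟩
      · obtain ⟨h2, h3⟩ := row_bounds hm hb h1 ht (mem_filter.mp hi).2.2
        obtain ⟨d, rfl⟩ := Nat.exists_eq_add_of_le hb.le
        obtain ⟨e, rfl⟩ := Nat.exists_eq_add_of_le htm.le
        simp only [Nat.add_sub_cancel_left] at h2 h3
        have e3 : m + 1 + e - 1 = m + e := by omega
        rw [e3] at h2 h3
        have h4 : 0 ≤ 9 * d * e * (2 * m + d) := Nat.zero_le _
        nlinarith
      · omega
    rw [h1, card_empty]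
    exact Nat.zero_le _

/-- All rows of `T` together. -/
theorem rows_T' {b m g : ℕ} (hm : 1 ≤ m) (hb : m < b) (hg : 1 ≤ g)
    (h : 9 * b ^ 2 ≤ (9 + g) * m ^ 2) (t : ℕ) (ht : 1 ≤ t) :
    (((T b m).image Prod.snd).filter fun i =>
      t ≤ ((T b m).filter fun p => p.2 = i).card).card ≤ g * (m + 1 - t) := by
  have h1 := card_eq_sum_card_fiberwise (s := ((T b m).image Prod.snd).filter fun i =>
      t ≤ ((T b m).filter fun p => p.2 = i).card) (t := range g) (f := fun i => i % g)
      (fun i _ => by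
        simp only [coe_range, Set.mem_Iio]
        exact Nat.mod_lt _ hg)
  rw [h1]
  refine le_trans (sum_le_card_nsmul (range g) _ (m + 1 - t) ?_) ?_
  · intro c _
    refine le_trans (card_le_card ?_) (rows_T hm hb hg h c t ht)
    intro i hi
    simp only [mem_filter] at hi ⊢
    exact ⟨hi.1.1, hi.2, hi.1.2⟩
  · rw [card_range, smul_eq_mul]

/-- A row of `T` has at most `m` points. -/
theorem row_T_le {b m g : ℕ} (hm : 1 ≤ m) (hb : m < b) (hg : 1 ≤ g)
    (h : 9 * b ^ 2 ≤ (9 + g) * m ^ 2) (i : ℕ) :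
    ((T b m).filter fun p => p.2 = i).card ≤ m := by
  by_contra hcon
  push Not at hcon
  have h1 := rows_T' hm hb hg h (m + 1) (by omega)
  rw [Nat.sub_self, mul_zero, Nat.le_zero, card_eq_zero, filter_eq_empty_iff] at h1
  refine h1 (x := i) ?_ hcon
  have h2 : ((T b m).filter fun p => p.2 = i).Nonempty := card_pos.mp (by omega)
  obtain ⟨p, hp⟩ := h2
  rw [mem_filter] at hp
  exact mem_image.mpr ⟨p, hp.1, hp.2⟩

/-! ### The window of slope `s` -/

/-- With `N = 9 b + 1`, `D = N m`, `V = N (b - m) - 1`, `s = 9 V / D`: `s j` is not an integer. -/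
theorem not_dvd {b m j : ℕ} (hb : m < b) (hj : 1 ≤ j) (hjb : j ≤ b) :
    ¬ ((9 * b + 1) * m ∣ 9 * ((9 * b + 1) * (b - m) - 1) * j) := by
  intro h
  have h1 : (9 * b + 1) ∣ 9 * ((9 * b + 1) * (b - m) - 1) * j :=
    dvd_trans (Dvd.intro _ rfl) h
  have h2 : 1 ≤ (9 * b + 1) * (b - m) := Nat.mul_pos (by omega) (by omega)
  have h3 : 9 * ((9 * b + 1) * (b - m) - 1) * j + 9 * j = (9 * b + 1) * (9 * (b - m) * j) := by
    zify [h2]
    ring
  have h4 : (9 * b + 1) ∣ 9 * j := by
    have h5 : (9 * b + 1) ∣ 9 * ((9 * b + 1) * (b - m) - 1) * j + 9 * j := by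
      rw [h3]
      exact Dvd.intro _ rfl
    exact (Nat.dvd_add_right h1).mp h5
  have h6 := Nat.le_of_dvd (by omega) h4
  have : 9 * j ≤ 9 * b := by omega
  omega

/-- The window in integer form: `s j < i < (s + 9) j` iff `(j, i) ∈ Qs`. -/
theorem window {b m j i : ℕ} (hm : 1 ≤ m) (hb : m < b) (hj : 1 ≤ j) (hjb : j ≤ b) :
    (9 * ((9 * b + 1) * (b - m) - 1) * j < (9 * b + 1) * m * i ∧
      (9 * b + 1) * m * i < 9 * ((9 * b + 1) * (b - m) - 1) * j + 9 * ((9 * b + 1) * m) * j) ↔
    (j, i) ∈ Qs b m := by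
  rw [mem_Qs hm]
  have h2 : 1 ≤ (9 * b + 1) * (b - m) := Nat.mul_pos (by omega) (by omega)
  have h3 : 9 * ((9 * b + 1) * (b - m) - 1) * j + 9 * j = (9 * b + 1) * (9 * (b - m) * j) := by
    zify [h2]
    ring
  have h4 : 9 * j ≤ 9 * b := by omega
  have h5 : 9 * b * j = 9 * (b - m) * j + 9 * m * j := by
    zify [hb.le]
    ring
  constructor
  · rintro ⟨h6, h7⟩
    right
    refine ⟨hj, hjb, ?_, ?_⟩
    · by_contra hcon
      push Not at hcon
      simp only at hcon
      have h8 : (9 * b + 1) * (m * i + 1) ≤ (9 * b + 1) * (9 * (b - m) * j) :=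
        Nat.mul_le_mul_left _ hcon
      nlinarith
    · simp only
      by_contra hcon
      push Not at hcon
      rw [h5] at hcon
      have h8 : (9 * b + 1) * (9 * (b - m) * j + 9 * m * j) ≤ (9 * b + 1) * (m * i) :=
        Nat.mul_le_mul_left _ hcon
      nlinarith
  · rintro (h6 | ⟨-, -, h6, h7⟩)
    · simp only [Prod.mk.injEq] at h6
      omega
    · simp only at h6 h7
      constructor
      · have h8 : (9 * b + 1) * (9 * (b - m) * j) ≤ (9 * b + 1) * (m * i) :=
          Nat.mul_le_mul_left _ h6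
        nlinarith
      · rw [h5] at h7
        have h8 : (9 * b + 1) * (m * i + 1) ≤ (9 * b + 1) * (9 * (b - m) * j + 9 * m * j) :=
          Nat.mul_le_mul_left _ h7
        nlinarith

end Vale.Agent.P279.H142
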