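import Vale.Agent.P279.H142.Dis

/-!
# P279: the lattice identity: the window of the theta functions is `Qs b m`
-/

namespace Vale.Agent.P279.H142

/-- `N m i ≥ 9 (N (b - m) - 1) j` and `N m (i - 9 j) ≤ 9 (N (b - m) - 1) j`, where
`N = 9 b + 1`, imply `(j, i) ∈ Qs b m`. -/
theorem qslat_aux {b m : ℕ} (hm : 1 ≤ m) (hmb : m ≤ b) {j i : ℤ} (hj : 1 ≤ j) (hjb : j ≤ b)
    (h1 : 9 * ((9 * b + 1) * (b - m) - 1) * j ≤ (9 * b + 1) * m * i)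
    (h2 : (9 * b + 1) * m * (i - 9 * j) ≤ 9 * ((9 * b + 1) * (b - m) - 1) * j) :
    9 * ((b : ℤ) - m) * j ≤ m * i ∧ (m : ℤ) * i < 9 * b * j ∧ 0 ≤ i := by
  have hm' : (1 : ℤ) ≤ m := by exact_mod_cast hm
  have hb' : (m : ℤ) ≤ b := by exact_mod_cast hmb
  have e1 : 9 * ((b : ℤ) - m) * j ≤ m * i := by
    by_contra hcon
    push Not at hcon
    have h3 : (m : ℤ) * i + 1 ≤ 9 * (b - m) * j := hcon
    nlinarith
  refine ⟨e1, ?_, ?_⟩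
  · by_contra hcon
    push Not at hcon
    nlinarith
  · by_contra hcon
    push Not at hcon
    have h4 : 0 ≤ 9 * ((b : ℤ) - m) * j := by
      have : 0 ≤ (b : ℤ) - m := by omega
      positivity
    nlinarith

/-- Membership in `Qs b m` over the integers. -/
theorem mem_Qs_int {b m : ℕ} (hm : 1 ≤ m) (hmb : m ≤ b) {j i : ℤ} (hj : 1 ≤ j) (hjb : j ≤ b)
    (h0 : 0 ≤ i) (h1 : 9 * ((b : ℤ) - m) * j ≤ m * i) (h2 : (m : ℤ) * i < 9 * b * j) :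
    ∃ t ∈ Qs b m, ((j, i) : ℤ × ℤ) = ((t.1 : ℤ), (t.2 : ℤ)) := by
  obtain ⟨j, rfl⟩ := Int.eq_ofNat_of_zero_le (by omega : 0 ≤ j)
  obtain ⟨i, rfl⟩ := Int.eq_ofNat_of_zero_le h0
  refine ⟨(j, i), ?_, rfl⟩
  rw [mem_Qs hm]
  right
  refine ⟨by omega, by omega, ?_, ?_⟩
  · zify [hmb]
    exact h1
  · zify
    exact h2

/-- **The lattice identity.**  With `al = N m`, `ga = 3 N m + 6 (N (b - m) - 1)`, `N = 9 b + 1`,
the two minimality inequalities force `(j, i) ∈ Qs b m`. -/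
theorem qslat {b m : ℕ} (hm : 1 ≤ m) (hmb : m ≤ b) {al ga j i : ℤ}
    (hal : al = (9 * b + 1) * m)
    (hga : ga = 3 * ((9 * b + 1) * m) + 6 * ((9 * b + 1) * (b - m) - 1))
    (hj : 1 ≤ j) (hjb : j ≤ b)
    (h1 : 0 ≤ 6 * al * i + 27 * al * j - 9 * ga * j)
    (h2 : 6 * al * (i - 9 * j) + 27 * al * j - 9 * ga * j ≤ 0) :
    ∃ t ∈ Qs b m, ((j, i) : ℤ × ℤ) = ((t.1 : ℤ), (t.2 : ℤ)) := by
  subst hal hga
  obtain ⟨e1, e2, e3⟩ := qslat_aux hm hmb hj hjb (i := i) (by linarith) (by linarith)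
  exact mem_Qs_int hm hmb hj hjb e3 e1 e2

/-- The origin is in `Qs b m`. -/
theorem zero_mem_Qs {b m : ℕ} (hm : 1 ≤ m) :
    ∃ t ∈ Qs b m, ((0, 0) : ℤ × ℤ) = ((t.1 : ℤ), (t.2 : ℤ)) :=
  ⟨(0, 0), by rw [mem_Qs hm]; exact Or.inl rfl, by simp⟩

end Vale.Agent.P279.H142
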