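import Vale.Agent.P279.H142.Clear
import Vale.Agent.P279.H142.QsLat
import Vale.Agent.P279.H765.Core

/-!
# P279: from the elementary degeneration statement to `LAStmt`
-/

namespace Vale.Agent.P279.H142

open MvPolynomial Vale.Agent.P279.H765

variable {k : Type*} [Field k]

/-- the unit `x` of `k[ℤ × ℤ]` (second exponent) -/
noncomputable def xu (k : Type*) [Field k] : (R2 k)ˣ where
  val := AddMonoidAlgebra.single (0, 1) 1
  inv := AddMonoidAlgebra.single (0, -1) 1
  val_inv := by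
    rw [AddMonoidAlgebra.single_mul_single]
    simp only [Prod.mk_add_mk, add_zero, add_neg_cancel, mul_one]
    rfl
  inv_val := by
    rw [AddMonoidAlgebra.single_mul_single]
    simp only [Prod.mk_add_mk, add_zero, neg_add_cancel, mul_one]
    rfl

theorem xu_pow_nat (n : ℕ) :
    ((xu k ^ n : (R2 k)ˣ) : R2 k) = AddMonoidAlgebra.single (0, (n : ℤ)) 1 := by
  rw [Units.val_pow_eq_pow_val]
  change (AddMonoidAlgebra.single ((0 : ℤ), (1 : ℤ)) (1 : k)) ^ n = _
  rw [AddMonoidAlgebra.single_pow]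
  simp

theorem xu_inv_pow_nat (n : ℕ) :
    (((xu k)⁻¹ ^ n : (R2 k)ˣ) : R2 k) = AddMonoidAlgebra.single (0, -(n : ℤ)) 1 := by
  rw [Units.val_pow_eq_pow_val]
  change (AddMonoidAlgebra.single ((0 : ℤ), (-1 : ℤ)) (1 : k)) ^ n = _
  rw [AddMonoidAlgebra.single_pow]
  simp

theorem xu_zpow (n : ℤ) :
    ((xu k ^ n : (R2 k)ˣ) : R2 k) = AddMonoidAlgebra.single (0, n) 1 := by
  obtain ⟨m, rfl | rfl⟩ := n.eq_nat_or_neg
  · rw [zpow_natCast]
    exact xu_pow_nat m
  · rw [zpow_neg, zpow_natCast, ← inv_pow]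
    exact xu_inv_pow_nat m

/-- the coefficients of `lam(x) * y^u x^v` -/
theorem coeff_eval_mul (lam : LaurentPolynomial k) (u v J I : ℤ) :
    (LaurentPolynomial.eval₂ (algebraMap k (R2 k)) (xu k) lam *
      AddMonoidAlgebra.single (u, v) 1).coeff (J, I) = if J = u then lam.coeff (I - v) else 0 := by
  induction lam using LaurentPolynomial.induction_on' with
  | add p q hp hq =>
    rw [map_add, add_mul, AddMonoidAlgebra.coeff_add, AddMonoidAlgebra.coeff_add]
    rw [Finsupp.add_apply, Finsupp.add_apply, hp, hq]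
    split_ifs <;> simp
  | C_mul_T n a =>
    rw [LaurentPolynomial.eval₂_C_mul_T, xu_zpow, mul_assoc, AddMonoidAlgebra.single_mul_single,
      ← LaurentPolynomial.single_eq_C_mul_T, AddMonoidAlgebra.coe_algebraMap]
    simp only [Function.comp_apply, Algebra.algebraMap_self, RingHom.id_apply, mul_one,
      AddMonoidAlgebra.single_mul_single, AddMonoidAlgebra.coeff_single, Finsupp.single_apply,
      Prod.mk_add_mk, zero_add, Prod.mk.injEq]
    by_cases h1 : u = J
    · subst h1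
      by_cases h2 : n + v = I
      · subst h2
        simp
      · have h3 : n ≠ I - v := by omega
        simp [h2, h3]
    · simp [h1, Ne.symm h1]

/-- **The elementary degeneration statement** over the ring of Laurent polynomials. -/
def LAUniv (k : Type*) [Field k] (A B b : ℕ) (N : ℤ) : Prop :=
  ∃ pt : Fin 2 → PowerSeries (R2 k),
    ∀ P : MvPolynomial (Fin 2) (PowerSeries k), P ≠ 0 → (∀ δ ∈ P.support, δ 0 + δ 1 ≤ 3 * b) →
      ∃ (e : ℕ) (lam : ℕ → LaurentPolynomial k), (∃ q ≤ b, lam q ≠ 0) ∧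
        (∀ q ≤ b, ∀ p : ℤ, (lam q).coeff p ≠ 0 →
          ((A : ℤ) + B) * p ≤ 9 * ((b : ℤ) - q) * B ∧
            -(((A : ℤ) + B) * p) ≤ 9 * ((b : ℤ) - q) * A) ∧
        PowerSeries.coeff e (eval₂ (PowerSeries.map (algebraMap k (R2 k))) pt P) =
          ∑ q ∈ Finset.range (b + 1), LaurentPolynomial.eval₂ (algebraMap k (R2 k)) (xu k) (lam q) *
            (AddMonoidAlgebra.single ((-1 : ℤ), -N) (1 : k)) ^ q

/-- the conversion, for a general support -/
theorem laStmt_of_univ {A B b : ℕ} {N : ℤ} (h : LAUniv k A B b N) (S : Finset (ℤ × ℤ))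
    (hS : ∀ j : ℕ, j ≤ b → ∀ p : ℤ, ((A : ℤ) + B) * p ≤ 9 * (j : ℤ) * B →
      -(((A : ℤ) + B) * p) ≤ 9 * (j : ℤ) * A → ((j : ℤ), p + N * j) ∈ S) :
    LAStmt k b S := by
  classical
  obtain ⟨pt, hpt⟩ := h
  refine ⟨AddMonoidAlgebra.single (-(b : ℤ), -(N * b)) 1,
    ![HahnSeries.ofPowerSeries ℤ (R2 k) (pt 0), HahnSeries.ofPowerSeries ℤ (R2 k) (pt 1), 1],
    ?_, ?_⟩
  · intro h
    have h1 := congrArg (fun f : R2 k => f.coeff (-(b : ℤ), -(N * b))) h
    simp at h1
  · intro P hP h0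
    obtain ⟨n, Q, hQ0, hQ1, hQ2⟩ := clear (3 * b) P hP h0
    obtain ⟨e, lam, ⟨q0, hq0, hlam0⟩, hwin, hcoef⟩ := hpt Q hQ0 hQ1
    have hcf : ∀ J I : ℤ, (∑ q ∈ Finset.range (b + 1),
        LaurentPolynomial.eval₂ (algebraMap k (R2 k)) (xu k) (lam q) *
          AddMonoidAlgebra.single ((b : ℤ) - q, N * ((b : ℤ) - q)) 1).coeff (J, I) =
        ∑ q ∈ Finset.range (b + 1),
          if J = (b : ℤ) - q then (lam q).coeff (I - N * ((b : ℤ) - q)) else 0 := by
      intro J I
      rw [AddMonoidAlgebra.coeff_sum, Finsupp.finsetSum_apply]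
      exact Finset.sum_congr rfl fun q _ => coeff_eval_mul _ _ _ _ _
    refine ⟨(e : ℤ) - n, ∑ q ∈ Finset.range (b + 1),
        LaurentPolynomial.eval₂ (algebraMap k (R2 k)) (xu k) (lam q) *
          AddMonoidAlgebra.single ((b : ℤ) - q, N * ((b : ℤ) - q)) 1, ?_, ?_, ?_⟩
    · intro hf
      apply hlam0
      refine LaurentPolynomial.ext fun p => ?_
      have h1 := hcf ((b : ℤ) - q0) (p + N * ((b : ℤ) - q0))
      rw [hf, Finset.sum_eq_single q0] at h1
      · rw [if_pos rfl, add_sub_cancel_right] at h1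
        rw [← h1]
        rfl
      · intro q _ hq
        rw [if_neg]
        omega
      · intro h2
        exact absurd (Finset.mem_range.2 (by omega)) h2
    · rintro ⟨J, I⟩ hs
      rw [hcf]
      refine Finset.sum_eq_zero fun q hq => ?_
      rw [Finset.mem_range] at hq
      split_ifs with hJ
      · by_contra hne
        obtain ⟨h1, h2⟩ := hwin q (by omega) _ hne
        have h3 := hS (b - q) (Nat.sub_le _ _) (I - N * ((b : ℤ) - q))
          (by rw [Nat.cast_sub (by omega)]; exact h1) (by rw [Nat.cast_sub (by omega)]; exact h2)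
        rw [Nat.cast_sub (by omega)] at h3
        apply hs
        rw [hJ]
        convert h3 using 2
        ring
      · rfl
    · have h1 := congrArg (fun x : HahnSeries ℤ (R2 k) => x.coeff (e : ℤ)) (hQ2 pt)
      rw [HahnSeries.coeff_single_mul, one_mul, coeff_ofPS, if_neg (by omega),
        Int.natAbs_natCast, hcoef] at h1
      rw [h1, Finset.mul_sum]
      refine Finset.sum_congr rfl fun q _ => ?_
      rw [mul_left_comm, AddMonoidAlgebra.single_mul_single, AddMonoidAlgebra.single_pow]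
      congr 2
      · ext
        · simp
          ring
        · simp
          ring
      · simp

/-- the slope data: `N' = (b - 1) / m` -/
theorem laStmt_QsZ [CharZero k] {b m : ℕ} (hm : 1 ≤ m) (hmb : m < b)
    (h : ∀ A B : ℕ, 0 < A → 0 < B → ∀ N : ℤ, LAUniv k A B b N) : LAStmt k b (QsZ b m) := by
  set N' : ℕ := (b - 1) / m with hN'
  have h1 : N' * m ≤ b - 1 := Nat.div_mul_le_self _ _
  have h2 : b - 1 < (N' + 1) * m := by
    have := Nat.lt_div_mul_add (a := b - 1) (b := m) (by omega)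
    rw [← hN'] at this
    linarith
  have h3 : (N' : ℤ) * m ≤ b - 1 := by
    have : N' * m + 1 ≤ b := by omega
    have h4 : ((N' * m + 1 : ℕ) : ℤ) ≤ b := by exact_mod_cast this
    push_cast at h4
    linarith
  have h4 : (b : ℤ) ≤ (N' + 1) * m := by
    have : b ≤ (N' + 1) * m := by omega
    have h5 : ((b : ℕ) : ℤ) ≤ ((N' + 1) * m : ℕ) := by exact_mod_cast this
    push_cast at h5
    linarith
  have hb : (1 : ℤ) ≤ b := by exact_mod_cast (by omega : 1 ≤ b)
  have hm' : (1 : ℤ) ≤ m := by exact_mod_cast hm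
  -- `A = N' L m - L (b - m) + 1`, `B = L (b - N' m) - 1`
  have hA0 : (0 : ℤ) < N' * (9 * b + 1) * m - (9 * b + 1) * (b - m) + 1 := by nlinarith
  have hB0 : (0 : ℤ) < (9 * b + 1) * (b - N' * m) - 1 := by nlinarith
  obtain ⟨A, hA⟩ := Int.eq_ofNat_of_zero_le hA0.le
  obtain ⟨B, hB⟩ := Int.eq_ofNat_of_zero_le hB0.le
  refine laStmt_of_univ (h A B (by omega) (by omega) (9 * N')) _ ?_
  intro j hjb p hp1 hp2
  rw [mem_QsZ]
  rw [← hA, ← hB] at hp1 hp2
  rcases Nat.eq_zero_or_pos j with rfl | hj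
  · have hp : p = 0 := by
      have e1 : (9 * (b : ℤ) + 1) * m * p ≤ 0 := by
        simp only [Nat.cast_zero, mul_zero, zero_mul] at hp1
        nlinarith
      have e2 : 0 ≤ (9 * (b : ℤ) + 1) * m * p := by
        simp only [Nat.cast_zero, mul_zero, zero_mul] at hp2
        nlinarith
      have e3 : (9 * (b : ℤ) + 1) * m * p = 0 := le_antisymm e1 e2
      rcases mul_eq_zero.mp e3 with h5 | h5
      · have : (0 : ℤ) < (9 * (b : ℤ) + 1) * m := by positivity
        omega
      · exact h5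
    subst hp
    exact ⟨(0, 0), (NG.mem_Qs hm).2 (Or.inl rfl), by simp⟩
  · have hj' : (1 : ℤ) ≤ j := by exact_mod_cast hj
    have hjb' : (j : ℤ) ≤ b := by exact_mod_cast hjb
    obtain ⟨e1, e2, e3⟩ := qslat_aux hm hmb.le hj' hjb' (i := p + 9 * N' * j)
      (by nlinarith) (by nlinarith)
    obtain ⟨i, hi⟩ := Int.eq_ofNat_of_zero_le e3
    refine ⟨(j, i), (NG.mem_Qs hm).2 (Or.inr ⟨hj, hjb, ?_, ?_⟩), ?_⟩
    · zify [hmb.le]
      rw [hi] at e1
      exact e1
    · zify
      rw [hi] at e2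
      exact e2
    · simp only [hi]

end Vale.Agent.P279.H142
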