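import Vale.Agent.P279.H142.QsLat
import Vale.Agent.P279.H662.Hahn

/-!
# P279: the window of the leading coefficient of a sum of theta functions
-/

namespace Vale.Agent.P279.H142

open HahnSeries Vale.Agent.P279.H662

variable {k : Type*} [Field k]

theorem cf_C_single_mul (u : ℤ × ℤ) (f : A k) (n : ℤ) (v : ℤ × ℤ) :
    cf (HahnSeries.C (AddMonoidAlgebra.single u (1 : k)) * f) n v = cf f n (v - u) := by
  rw [cf, HahnSeries.C_mul_eq_smul, HahnSeries.coeff_smul, smul_eq_mul,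
    coeff_mul_R _ _ v {u}]
  · rw [Finset.sum_singleton]
    simp [cf]
  · intro w hw
    rw [Finsupp.mem_support_iff] at hw
    rw [Finset.mem_singleton]
    by_contra h
    apply hw
    simp [Ne.symm h]

/-- The coefficients of `∑ j, y ^ j * g j` if the `g j` do not involve `y`. -/
theorem cf_sum_y {b : ℕ} {g : ℕ → A k} (hy : ∀ j n v, cf (g j) n v ≠ 0 → v.1 = 0) {H : A k}
    (hH : H = ∑ j ∈ Finset.range (b + 1),
      HahnSeries.C (AddMonoidAlgebra.single ((j : ℤ), (0 : ℤ)) (1 : k)) * g j)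
    {j : ℕ} (hj : j ≤ b) (n p : ℤ) : cf H n (j, p) = cf (g j) n (0, p) := by
  rw [hH, cf_sum, Finset.sum_eq_single j]
  · rw [cf_C_single_mul]
    congr 1
    ext <;> simp
  · intro i _ hij
    rw [cf_C_single_mul]
    by_contra hne
    have h1 := hy i n _ hne
    simp only [Prod.fst_sub] at h1
    apply hij
    omega
  · intro h
    exact absurd (Finset.mem_range.2 (by omega)) h

theorem exists_of_cf_sum_y {b : ℕ} {g : ℕ → A k} (hy : ∀ j n v, cf (g j) n v ≠ 0 → v.1 = 0)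
    {H : A k}
    (hH : H = ∑ j ∈ Finset.range (b + 1),
      HahnSeries.C (AddMonoidAlgebra.single ((j : ℤ), (0 : ℤ)) (1 : k)) * g j)
    {n : ℤ} {v : ℤ × ℤ} (hv : cf H n v ≠ 0) : ∃ j : ℕ, j ≤ b ∧ v.1 = j := by
  rw [hH, cf_sum] at hv
  obtain ⟨j, hj, hne⟩ := Finset.exists_ne_zero_of_sum_ne_zero hv
  rw [cf_C_single_mul] at hne
  have h1 := hy j n _ hne
  simp only [Prod.fst_sub] at h1
  exact ⟨j, by have := Finset.mem_range.1 hj; omega, by omega⟩

/-- **The window.** -/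
theorem window_supp {b m : ℕ} (hm : 1 ≤ m) (hmb : m ≤ b) {al ga : ℤ}
    (hal : al = (9 * b + 1) * m)
    (hga : ga = 3 * ((9 * b + 1) * m) + 6 * ((9 * b + 1) * (b - m) - 1))
    (g : ℕ → A k)
    (hg : ∀ j : ℕ, Sh (6 * al) (j * (27 * al - 9 * ga)) (9 * j) (g j) (g j))
    (hy : ∀ j n v, cf (g j) n v ≠ 0 → v.1 = 0)
    (h0 : ∀ n v, cf (g 0) n v ≠ 0 → v = 0)
    (n : ℤ) (H : A k)
    (hH : H = ∑ j ∈ Finset.range (b + 1),
      HahnSeries.C (AddMonoidAlgebra.single ((j : ℤ), (0 : ℤ)) (1 : k)) * g j)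
    (hn : ∀ n' < n, H.coeff n' = 0) :
    ∀ s, (H.coeff n).coeff s ≠ 0 → ∃ t ∈ Qs b m, s = ((t.1 : ℤ), (t.2 : ℤ)) := by
  have hn' : ∀ n' v, cf H n' v ≠ 0 → n ≤ n' := by
    intro n' v hne
    by_contra hlt
    push Not at hlt
    apply hne
    rw [cf, hn n' hlt]
    rfl
  rintro ⟨J, p⟩ hs
  change cf H n (J, p) ≠ 0 at hs
  obtain ⟨j, hjb, hJ⟩ := exists_of_cf_sum_y hy hH hs
  simp only at hJ
  subst hJ
  rcases Nat.eq_zero_or_pos j with rfl | hj
  · rw [cf_sum_y hy hH hjb] at hs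
    have h1 := h0 n _ hs
    have h2 : p = 0 := by simpa using congrArg Prod.snd h1
    subst h2
    obtain ⟨t, ht, h3⟩ := zero_mem_Qs (b := b) hm
    exact ⟨t, ht, by simpa using h3⟩
  · have hs1 := hs
    rw [cf_sum_y hy hH hjb] at hs1
    -- going up
    have e1 := hg j n (0, p)
    simp only at e1
    rw [← e1, ← cf_sum_y hy hH hjb] at hs1
    have i1 := hn' _ _ hs1
    -- going down
    have hs2 := hs
    rw [cf_sum_y hy hH hjb] at hs2
    have e2 := hg j (n - 6 * al * (p - 9 * j) - j * (27 * al - 9 * ga)) (0, p - 9 * j)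
    simp only at e2
    rw [show n - 6 * al * (p - 9 * j) - j * (27 * al - 9 * ga) + 6 * al * (p - 9 * j) +
      j * (27 * al - 9 * ga) = n by ring, show p - 9 * (j : ℤ) + 9 * j = p by ring] at e2
    rw [e2, ← cf_sum_y hy hH hjb] at hs2
    have i2 := hn' _ _ hs2
    exact qslat hm hmb hal hga (by exact_mod_cast hj) (by exact_mod_cast hjb)
      (by linarith) (by linarith)

theorem win_ne_zero {b : ℕ} (g : ℕ → A k)
    (hy : ∀ j n v, cf (g j) n v ≠ 0 → v.1 = 0)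
    (H : A k)
    (hH : H = ∑ j ∈ Finset.range (b + 1),
      HahnSeries.C (AddMonoidAlgebra.single ((j : ℤ), (0 : ℤ)) (1 : k)) * g j)
    (h : ∃ j ≤ b, g j ≠ 0) : H ≠ 0 := by
  obtain ⟨j, hjb, hj⟩ := h
  obtain ⟨n, v, hv⟩ := exists_cf_ne hj
  have h1 := hy j n v hv
  obtain ⟨v1, v2⟩ := v
  simp only at h1
  subst h1
  rw [← cf_sum_y hy hH hjb] at hv
  rintro rfl
  exact hv (cf_zero _ _)

end Vale.Agent.P279.H142
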